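import Vale.Agent.P224.Cover

open Manifold
open scoped ContDiff

namespace Vale.Agent.Results.P224.Pinched

open Vale.Agent.P224

theorem result (m : ℕ) (hm : 2 ≤ m) (M : Type) [TopologicalSpace M] [T2Space M] [CompactSpace M]
    [ConnectedSpace M] [ChartedSpace (EuclideanSpace ℝ (Fin m)) M] [IsManifold (𝓡 m) ∞ M]
    (F : M → EuclideanSpace ℝ (Fin (m + 2)))
    (hF : SmoothImm (EuclideanSpace ℝ (Fin m)) F) (hsph : ∀ x, ‖F x‖ = 1)
    (hmin : ShapeAll F fun A => A.trace = 0)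
    (hA : ShapeAll F fun A => (m : ℝ) ≤ (A * A).trace) :
    ENNReal.ofReal (aMin m) ≤ vol F :=
  vol_ge hm hF.1 hsph hF.2 hmin hA

end Vale.Agent.Results.P224.Pinched
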